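import Vale.Agent.P088.H442.C.Defs
import Vale.Agent.P088.H27.Const2
import Vale.Agent.P088.H393.Est3
import Vale.Agent.P088.H393.CFSym
import Vale.Agent.P088.H102.Neu
import Vale.Agent.P088.H501.A12
import Vale.Agent.P088.H776.A3

/-!
# P088, Theorem C, row C_OF: both solutions agree off `Ω`
-/

open MeasureTheory Set Filter
open scoped ContDiff Matrix Topology

noncomputable section

namespace Vale.Agent.P088.H947

open Vale.Agent.P088.LR Vale.Agent.P088.LR.CF Vale.Agent.P088.LR.CC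
open Vale.Agent.P088.LR.H393 (EE LL LL_apply EE_contDiff pd_EE_mul pd_EE rd_fr rd_const_mul
  Es_const_mul Es_add Es_sum rd_sum)

variable {n : ℕ}

/-! ### quasi-periodic functions `e^{z·x} Es θ d` -/

/-- `e^{z·x} Es θ d`. -/
def vv (z : Fin n → ℂ) (θ : V n) (d : Ix n → ℂ) (x : V n) : ℂ := EE z x * Es θ d x

/-- `(2πi (k + θ)_i + z_i) d_k`. -/
def ml (z : Fin n → ℂ) (θ : V n) (i : Fin n) (d : Ix n → ℂ) (k : Ix n) : ℂ :=
  (2 * Real.pi * Complex.I * ((fr θ k i : ℝ) : ℂ) + z i) * d k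

lemma rd_addL {c d : Ix n → ℂ} (hc : RD c) (hd : RD d) : RD fun k => c k + d k :=
  LR.H27.rd_add hc hd

lemma rd_ml {d : Ix n → ℂ} (hd : RD d) (z : Fin n → ℂ) (θ : V n) (i : Fin n) :
    RD (ml z θ i d) := by
  have h := rd_addL (rd_fr hd θ i) (rd_const_mul hd (z i))
  have e : ml z θ i d = fun k => 2 * Real.pi * Complex.I * ((fr θ k i : ℝ) : ℂ) * d k
      + z i * d k := by
    funext k
    unfold ml
    ring
  rw [e]
  exact h

lemma vv_smooth {d : Ix n → ℂ} (hd : RD d) (z : Fin n → ℂ) (θ : V n) :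
    ContDiff ℝ ∞ (vv z θ d) :=
  (EE_contDiff z).mul (LR.H501.rowA1 θ d hd).1

lemma pd_vv {d : Ix n → ℂ} (hd : RD d) (z : Fin n → ℂ) (θ : V n) (i : Fin n) (x : V n) :
    pd i (vv z θ d) x = vv z θ (ml z θ i d) x := by
  have h := pd_EE_mul LR.H501.rowA1 z θ 0 hd i x
  simp only [zero_add, mul_zero] at h
  exact h

/-- `Δ W = ∑ ∂_i ∂_i W`. -/
lemma dv_one_eq (W : V n → ℂ) (x : V n) :
    dv (fun _ => 1) W x = ∑ i, pd i (pd i W) x := by
  unfold dv
  refine Finset.sum_congr rfl fun i _ => ?_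
  congr 1
  funext y
  rw [Finset.sum_eq_single i]
  · simp
  · intro j _ hj
    simp [hj.symm]
  · intro h
    exact absurd (Finset.mem_univ i) h

/-- The symbol. -/
def sb (z : Fin n → ℂ) (θ : V n) (k : Ix n) : ℂ :=
  ∑ i, (2 * Real.pi * Complex.I * ((fr θ k i : ℝ) : ℂ) + z i) ^ 2

lemma rd_sb {d : Ix n → ℂ} (hd : RD d) (z : Fin n → ℂ) (θ : V n) :
    RD fun k => sb z θ k * d k := by
  have h : RD fun k => ∑ i, ml z θ i (ml z θ i d) k :=
    rd_sum fun i => rd_ml (rd_ml hd z θ i) z θ i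
  have e : (fun k => sb z θ k * d k) = fun k => ∑ i, ml z θ i (ml z θ i d) k := by
    funext k
    unfold sb ml
    rw [Finset.sum_mul]
    exact Finset.sum_congr rfl fun i _ => by ring
  rw [e]
  exact h

lemma dv_vv {d : Ix n → ℂ} (hd : RD d) (z : Fin n → ℂ) (θ : V n) (x : V n) :
    dv (fun _ => 1) (vv z θ d) x = vv z θ (fun k => sb z θ k * d k) x := by
  rw [dv_one_eq]
  have h1 : ∀ i, pd i (pd i (vv z θ d)) x = vv z θ (ml z θ i (ml z θ i d)) x := by
    intro i
    have : pd i (vv z θ d) = vv z θ (ml z θ i d) := funext fun y => pd_vv hd z θ i y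
    rw [this, pd_vv (rd_ml hd z θ i)]
  rw [Finset.sum_congr rfl fun i _ => h1 i]
  unfold vv
  rw [← Finset.mul_sum, ← Es_sum (fun i => rd_ml (rd_ml hd z θ i) z θ i)]
  congr 2
  funext k
  unfold sb ml
  rw [Finset.sum_mul]
  exact Finset.sum_congr rfl fun i _ => by ring

lemma EE_neg (z : Fin n → ℂ) (x : V n) : EE z x * EE (fun j => -z j) x = 1 := by
  unfold EE
  rw [← Complex.exp_add, LL_apply, LL_apply]
  simp

lemma vv_mul {a b : Ix n → ℂ} (ha : RD a) (hb : RD b) (z : Fin n → ℂ) (θ x : V n) :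
    vv z θ a x * vv (fun j => -z j) (-θ) b x = Es 0 (cv a b) x := by
  have h := (LR.H501.rowA2 θ (-θ) a b ha hb).2.2.1 x
  rw [add_neg_cancel] at h
  rw [← h]
  unfold vv
  linear_combination (Es θ a x * Es (-θ) b x) * EE_neg z x

/-- Integral of the product of two functions with opposite multipliers. -/
lemma int_vv {a b : Ix n → ℂ} (ha : RD a) (hb : RD b) (z : Fin n → ℂ) (θ : V n) :
    ∫ x in cube n, vv z θ a x * vv (fun j => -z j) (-θ) b x = ∑' l, a (-l) * b l := by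
  simp_rw [vv_mul ha hb z θ]
  rw [LR.G.int_Es (LR.H501.rowA2 θ (-θ) a b ha hb).1]
  unfold cv
  simp only [zero_sub]

lemma intOn_vv {a b : Ix n → ℂ} (ha : RD a) (hb : RD b) (z : Fin n → ℂ) (θ : V n) :
    IntegrableOn (fun x => vv z θ a x * vv (fun j => -z j) (-θ) b x) (cube n) := by
  simp_rw [vv_mul ha hb z θ]
  exact (LR.H27.Pr.es (LR.H501.rowA2 θ (-θ) a b ha hb).1).integrableOn LR.H501.rowA1

lemma sb_neg (z : Fin n → ℂ) (θ : V n) (l : Ix n) :
    sb (fun j => -z j) (-θ) l = sb z θ (-l) := by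
  unfold sb
  refine Finset.sum_congr rfl fun i _ => ?_
  simp only [fr, Pi.neg_apply, Int.cast_neg]
  push_cast
  ring

/-- Green's formula. -/
lemma green_vv {a b : Ix n → ℂ} (ha : RD a) (hb : RD b) (z : Fin n → ℂ) (θ : V n) :
    ∫ x in cube n, vv z θ a x * dv (fun _ => 1) (vv (fun j => -z j) (-θ) b) x =
      ∫ x in cube n, dv (fun _ => 1) (vv z θ a) x * vv (fun j => -z j) (-θ) b x := by
  simp_rw [dv_vv ha z θ, dv_vv hb (fun j => -z j) (-θ)]
  rw [int_vv ha (rd_sb hb _ _), int_vv (rd_sb ha _ _) hb]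
  refine tsum_congr fun l => ?_
  rw [sb_neg]
  ring

/-! ### the background equation with a source -/

lemma th0_le (i₀ : Fin n) (j : Fin n) : |(-th0 i₀ : V n) j| ≤ 1 := by
  rw [Pi.neg_apply, abs_neg]
  unfold th0
  by_cases h : j = i₀
  · subst h
    rw [Pi.single_eq_same]
    norm_num
  · rw [Pi.single_eq_of_ne h]
    norm_num

lemma sb_lmz (i₀ : Fin n) (z : Fin n → ℂ) (k : Ix n) :
    sb z (th0 i₀) k = ∑ j, lmz i₀ z k j ^ 2 := rfl

lemma cx_smooth {q : V n → ℝ} (hq : ContDiff ℝ ∞ q) : ContDiff ℝ ∞ (cx q) :=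
  Complex.ofRealCLM.contDiff.comp hq

lemma tsupp_core {f : V n → ℂ} (h : ∀ x ∉ core n, f x = 0) : tsupport f ⊆ cube n := by
  have h1 : IsClosed (core n) := (LR.H27.compact_core n).isClosed
  refine (closure_minimal ?_ h1).trans (LR.H27.core_sub_cube n)
  intro x hx
  by_contra hc
  exact hx (h x hc)

/-- **The solver.** -/
theorem solver (n : ℕ) (B : ℝ) : ∃ C : ℝ, 1 ≤ C ∧ ∀ (i₀ : Fin n) (e : ℝ) (ξ : V n),
    (e = 1 ∨ e = -1) → ξ i₀ = 0 → C ≤ nr ξ → ∀ q₀ : V n → ℝ, ContDiff ℝ ∞ q₀ →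
    (∀ x ∉ core n, q₀ x = 0) → Cl (n + 1) B (cx q₀) → ∀ g : V n → ℂ, ContDiff ℝ ∞ g →
    tsupport g ⊆ cube n → ∃ d : Ix n → ℂ, RD d ∧ ∀ x ∈ cube n,
      dv (fun _ => 1) (vv (fun j => -zs e i₀ ξ j) (-th0 i₀) d) x
        - (q₀ x : ℂ) * vv (fun j => -zs e i₀ ξ j) (-th0 i₀) d x = g x := by
  obtain ⟨C₃, hC₃, h3⟩ := Vale.Agent.P088.H776.rowA3 n 0
  refine ⟨1 + 2 * C₃ * |B|, by have := abs_nonneg B; nlinarith, ?_⟩
  intro i₀ e ξ he hξ hX q₀ hq₀ hq0 hB g hg hgs
  have hX1 : 1 ≤ nr ξ := by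
    have := mul_nonneg (mul_nonneg (by norm_num : (0 : ℝ) ≤ 2) hC₃.le) (abs_nonneg B)
    linarith
  have hX0 : 0 < nr ξ := by linarith
  set z : Fin n → ℂ := zs e i₀ ξ with hz
  set z' : Fin n → ℂ := fun j => -zs e i₀ ξ j with hz'
  set θ : V n := -th0 i₀ with hθ
  -- the symbol
  have hP : ∀ k, nr ξ ≤ ‖sb z' θ k‖ := by
    intro k
    have h1 : sb z' θ k = sb z (th0 i₀) (-k) := sb_neg z (th0 i₀) k
    rw [h1, sb_lmz]
    exact ((H393.sym i₀ e ξ he hξ hX1).2.2 (-k)).1
  have hP0 : ∀ k, sb z' θ k ≠ 0 := fun k h => by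
    have := hP k
    rw [h, norm_zero] at this
    linarith
  -- the potential
  have h3q := h3 (cx q₀) (cx_smooth hq₀) (tsupp_core fun x hx => by
    unfold cx
    rw [hq0 x hx, Complex.ofReal_zero]) 0 (fun j => by simp)
  set Q : Ix n → ℂ := cf 0 (cx q₀) with hQ
  have hQR : RD Q := h3q.1
  have hQB : nm 0 Q ≤ C₃ * B := h3q.2.2 B (by simpa using hB)
  -- the source
  set G : V n → ℂ := fun x => EE z x * g x with hG
  have hGs : ContDiff ℝ ∞ G := (EE_contDiff z).mul hg
  have hGt : tsupport G ⊆ cube n := (tsupport_mul_subset_right).trans hgs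
  have h3g := h3 G hGs hGt θ (th0_le i₀)
  set γ : Ix n → ℂ := cf θ G with hγ
  have hγR : RD γ := h3g.1
  obtain ⟨y, hy, heq, -⟩ := Vale.Agent.P088.H102.neu (n := n) (d := 1)
    (fun k l _ _ => Q (k - l) / sb z' θ k) (fun k => ‖Q k‖ / nr ξ) (fun k _ => γ k / sb z' θ k)
    (fun m => by
      have := (hQR m).div_const (nr ξ)
      refine this.congr fun k => ?_
      ring)
    (fun k => by positivity)
    (fun k l i => by
      rw [Finset.univ_unique, Finset.sum_singleton, norm_div]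
      exact div_le_div_of_nonneg_left (norm_nonneg _) hX0 (hP k))
    (fun i => LR.H27.rd_mono hγR fun k => by
      rw [norm_div]
      exact div_le_self (norm_nonneg _) (hX1.trans (hP k)))
    0
    (by
      have h1 : ∑' k : Ix n, wt k ^ 0 * (‖Q k‖ / nr ξ) = nm 0 Q / nr ξ := by
        unfold nm
        rw [← tsum_div_const]
        exact tsum_congr fun k => by ring
      rw [h1, div_le_iff₀ hX0]
      have h2 : C₃ * B ≤ C₃ * |B| := mul_le_mul_of_nonneg_left (le_abs_self B) hC₃.le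
      linarith)
  set d : Ix n → ℂ := fun k => y k 0 with hd
  have hdR : RD d := hy 0
  refine ⟨d, hdR, fun x hx => ?_⟩
  have hcv : RD (cv Q d) := (LR.H501.rowA2 0 θ Q d hQR hdR).1
  have hmain : ∀ k, sb z' θ k * d k = γ k + cv Q d k := by
    intro k
    have h1 := heq k 0
    have h2 : ∑' l, ∑ j : Fin 1, Q (k - l) / sb z' θ k * y l j = cv Q d k / sb z' θ k := by
      unfold cv
      rw [← tsum_div_const]
      refine tsum_congr fun l => ?_
      rw [Finset.univ_unique, Finset.sum_singleton]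
      change Q (k - l) / sb z' θ k * y l 0 = Q (k - l) * y l 0 / sb z' θ k
      ring
    rw [h2, ← add_div] at h1
    change sb z' θ k * y k 0 = _
    rw [h1, mul_div_cancel₀ _ (hP0 k)]
  rw [dv_vv hdR z' θ x]
  have h4 : (fun k => sb z' θ k * d k) = fun k => γ k + cv Q d k := funext hmain
  rw [h4]
  unfold vv
  rw [Es_add hγR hcv]
  have h5 := (LR.H501.rowA2 0 θ Q d hQR hdR).2.2.1 x
  rw [zero_add] at h5
  rw [← h5, ← h3g.2.1 x hx, ← h3q.2.1 x hx]
  have h6 : EE z x * EE z' x = 1 := EE_neg z x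
  change EE z' x * (EE z x * g x + (q₀ x : ℂ) * Es θ d x) - (q₀ x : ℂ) * (EE z' x * Es θ d x) = g x
  linear_combination g x * h6

/-! ### integration by parts with compact support -/

lemma smooth_pdL {f : V n → ℂ} (hf : ContDiff ℝ ∞ f) (i : Fin n) : ContDiff ℝ ∞ (pd i f) :=
  LR.G.smooth_pd hf i

lemma ibp_cs {f g : V n → ℂ} (hf : ContDiff ℝ ∞ f) (hg : ContDiff ℝ ∞ g)
    (hgc : HasCompactSupport g) (i : Fin n) :
    ∫ x, f x * pd i g x = -∫ x, pd i f x * g x := by
  have i1 : Integrable fun x => pd i f x * g x :=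
    ((smooth_pdL hf i).continuous.mul hg.continuous).integrable_of_hasCompactSupport
      hgc.mul_left
  have hgc' : HasCompactSupport (pd i g) := hgc.fderiv_apply ℝ (Pi.single i 1)
  have i2 : Integrable fun x => f x * pd i g x :=
    (hf.continuous.mul (smooth_pdL hg i).continuous).integrable_of_hasCompactSupport
      hgc'.mul_left
  have i3 : Integrable fun x => f x * g x :=
    (hf.continuous.mul hg.continuous).integrable_of_hasCompactSupport hgc.mul_left
  exact integral_mul_fderiv_eq_neg_fderiv_mul_of_integrable (μ := (volume : Measure (V n)))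
    (v := Pi.single i 1) i1 i2 i3 (fun x _ => (hf.differentiable (by simp)) x)
    (fun x _ => (hg.differentiable (by simp)) x)

lemma smooth_flux {s : MF n} (hs : SmM s) {u : V n → ℂ} (hu : ContDiff ℝ ∞ u) (i : Fin n) :
    ContDiff ℝ ∞ fun y => ∑ j, (s y i j : ℂ) * pd j u y :=
  ContDiff.sum fun j _ => (Complex.ofRealCLM.contDiff.comp (hs i j)).mul (smooth_pdL hu j)

/-- `∫ v div (s ∇ u) = - bl Ω s v u` for `s = 0` off `Ω`. -/
lemma int_dv {Ω : Set (V n)} (hΩ : Ω ⊆ core n) {s : MF n} (hs : SmM s)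
    (h0 : ∀ x ∉ Ω, s x = 0) {u v : V n → ℂ} (hu : ContDiff ℝ ∞ u) (hv : ContDiff ℝ ∞ v) :
    Integrable (fun x => v x * dv s u x) ∧ ∫ x, v x * dv s u x = -bl Ω s v u := by
  set h : Fin n → V n → ℂ := fun i y => ∑ j, (s y i j : ℂ) * pd j u y with hh
  have hhs : ∀ i, ContDiff ℝ ∞ (h i) := fun i => smooth_flux hs hu i
  have hh0 : ∀ i, ∀ x ∉ Ω, h i x = 0 := fun i x hx => by
    simp only [hh, h0 x hx, Matrix.zero_apply, Complex.ofReal_zero, zero_mul,
      Finset.sum_const_zero]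
  have hhc : ∀ i, HasCompactSupport (h i) := fun i =>
    LR.H27.hcs_of_core fun x hx => hh0 i x fun h => hx (hΩ h)
  have e1 : ∀ x, v x * dv s u x = ∑ i, v x * pd i (h i) x := fun x => by
    unfold dv
    rw [Finset.mul_sum]
  have i1 : ∀ i, Integrable fun x => v x * pd i (h i) x := fun i =>
    (hv.continuous.mul (smooth_pdL (hhs i) i).continuous).integrable_of_hasCompactSupport
      (HasCompactSupport.mul_left ((hhc i).fderiv_apply ℝ (Pi.single i 1)))
  have i2 : ∀ i, Integrable fun x => pd i v x * h i x := fun i =>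
    ((smooth_pdL hv i).continuous.mul (hhs i).continuous).integrable_of_hasCompactSupport
      (hhc i).mul_left
  constructor
  · simp_rw [e1]
    exact integrable_finsetSum _ fun i _ => i1 i
  · simp_rw [e1]
    rw [integral_finsetSum _ fun i _ => i1 i]
    have e2 : ∀ i, ∫ x, v x * pd i (h i) x = -∫ x, pd i v x * h i x := fun i =>
      ibp_cs hv (hhs i) (hhc i) i
    rw [Finset.sum_congr rfl fun i _ => e2 i, Finset.sum_neg_distrib,
      ← integral_finsetSum _ fun i _ => i2 i]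
    congr 1
    unfold bl
    have e3 : ∀ x, ∑ i, pd i v x * h i x =
        ∑ i, ∑ j, (s x i j : ℂ) * pd i v x * pd j u x := fun x => by
      refine Finset.sum_congr rfl fun i _ => ?_
      simp only [hh]
      rw [Finset.mul_sum]
      exact Finset.sum_congr rfl fun j _ => by ring
    simp_rw [e3]
    symm
    refine setIntegral_eq_integral_of_forall_compl_eq_zero fun x hx => ?_
    simp only [h0 x hx, Matrix.zero_apply, Complex.ofReal_zero, zero_mul,
      Finset.sum_const_zero]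

lemma pd_subL {f g : V n → ℂ} (hf : ContDiff ℝ ∞ f) (hg : ContDiff ℝ ∞ g) (i : Fin n)
    (x : V n) : pd i (fun y => f y - g y) x = pd i f x - pd i g x := by
  unfold pd
  rw [fderiv_fun_sub ((hf.differentiable (by simp)) x) ((hg.differentiable (by simp)) x)]
  rfl

lemma smM_one : SmM (n := n) fun _ => 1 := fun _ _ => contDiff_const

lemma smM_sub1 {t : MF n} (ht : SmM t) : SmM fun x => t x - 1 := fun i j =>
  (ht i j).sub contDiff_const

lemma dv_sub_one {t : MF n} (ht : SmM t) {u : V n → ℂ} (hu : ContDiff ℝ ∞ u) (x : V n) :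
    dv (fun y => t y - 1) u x = dv t u x - dv (fun _ => 1) u x := by
  unfold dv
  rw [← Finset.sum_sub_distrib]
  refine Finset.sum_congr rfl fun i _ => ?_
  rw [← pd_subL (smooth_flux ht hu i) (smooth_flux smM_one hu i)]
  congr 1
  funext y
  rw [← Finset.sum_sub_distrib]
  refine Finset.sum_congr rfl fun j _ => ?_
  change (((t y - 1) i j : ℝ) : ℂ) * pd j u y = _
  rw [Matrix.sub_apply]
  push_cast
  ring

lemma dv_sub_fun {t : MF n} (ht : SmM t) {u w : V n → ℂ} (hu : ContDiff ℝ ∞ u)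
    (hw : ContDiff ℝ ∞ w) (x : V n) :
    dv t (fun y => u y - w y) x = dv t u x - dv t w x := by
  unfold dv
  rw [← Finset.sum_sub_distrib]
  refine Finset.sum_congr rfl fun i _ => ?_
  rw [← pd_subL (smooth_flux ht hu i) (smooth_flux ht hw i)]
  congr 1
  funext y
  rw [← Finset.sum_sub_distrib]
  refine Finset.sum_congr rfl fun j _ => ?_
  rw [pd_subL hu hw]
  ring

lemma bal_core : bal n ⊆ core n := by
  intro x hx j
  have h1 : ∑ j, (x j - 1 / 2) ^ 2 ≤ 1 / 16 := hx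
  have h2 : (x j - 1 / 2) ^ 2 ≤ ∑ j, (x j - 1 / 2) ^ 2 :=
    Finset.single_le_sum (f := fun j => (x j - 1 / 2) ^ 2) (fun i _ => sq_nonneg _)
      (Finset.mem_univ j)
  have h3 : (x j - 1 / 2) ^ 2 ≤ (1 / 4) ^ 2 := by
    linarith
  have h4 := abs_le_of_sq_le_sq' h3 (by norm_num)
  constructor <;> linarith [h4.1, h4.2]

/-! ### the row -/

/-- The solutions as products. -/
lemma SolQ_eq {z : Fin n → ℂ} {θ : V n} {t : MF n} {q : V n → ℝ} {c : Ix n → ℂ} {u : V n → ℂ}
    (h : SolQ z θ t q c u) (x : V n) : u x = EE z x * (1 + Es θ c x) := by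
  rw [h.val x]
  unfold EE
  rw [LL_apply]

lemma SolQ_smooth {z : Fin n → ℂ} {θ : V n} {t : MF n} {q : V n → ℝ} {c : Ix n → ℂ}
    {u : V n → ℂ} (h : SolQ z θ t q c u) : ContDiff ℝ ∞ u := by
  have e : u = fun x => EE z x * (1 + Es θ c x) := funext fun x => SolQ_eq h x
  rw [e]
  exact (EE_contDiff z).mul (contDiff_const.add (LR.H501.rowA1 θ c h.rc).1)

/-- The difference of two solutions. -/
lemma SolQ_sub {z : Fin n → ℂ} {θ : V n} {t t' : MF n} {q q' : V n → ℝ} {c c' : Ix n → ℂ}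
    {u u' : V n → ℂ} (h : SolQ z θ t q c u) (h' : SolQ z θ t' q' c' u') :
    RD (fun k => c k + (-1) * c' k) ∧
      ∀ x, u x - u' x = vv z θ (fun k => c k + (-1) * c' k) x := by
  have hR : RD (fun k => (-1) * c' k) := rd_const_mul h'.rc (-1)
  refine ⟨rd_addL h.rc hR, fun x => ?_⟩
  unfold vv
  rw [SolQ_eq h, SolQ_eq h', Es_add h.rc hR, Es_const_mul]
  ring

/-- A function which vanishes against test functions off `Ω` vanishes off `Ω`. -/
lemma zero_of_test (i₀ : Fin n) (Ω : Set (V n)) (hreg : interior (closure Ω) = Ω)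
    (hΩ : Ω ⊆ core n) {f : V n → ℂ} (hf : Continuous f)
    (ht : ∀ ψ : V n → ℂ, ContDiff ℝ ∞ ψ → tsupport ψ ⊆ cube n → HasCompactSupport ψ →
      (∀ x ∈ Ω, ψ x = 0) → ∫ x, ψ x * f x = 0) :
    ∀ x ∈ cube n, x ∉ Ω → f x = 0 := by
  obtain ⟨c0, h0⟩ := LR.H27.const_of_test Ω hreg hf
    (fun ψ h1 h2 h3 h4 _ => ht ψ h1 h2 h3 h4)
  suffices hc : c0 = 0 by
    intro x hx hxΩ
    rw [h0 x hx hxΩ, hc]
  set x0 : V n := fun _ => 1 / 8 with hx0
  let χ : ContDiffBump x0 := ⟨1 / 32, 1 / 16, by norm_num, by norm_num⟩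
  set g0 : V n → ℝ := fun x => χ.normed volume x with hg0
  have hg0s : ContDiff ℝ ∞ g0 := χ.contDiff_normed
  have hg0c : HasCompactSupport g0 := χ.hasCompactSupport_normed
  have hg0i : ∫ x, g0 x = 1 := χ.integral_normed
  have hg0t : tsupport g0 ⊆ Metric.closedBall x0 (1 / 16) :=
    (χ.tsupport_normed_eq (μ := volume)).subset
  have hball : ∀ x ∈ Metric.closedBall x0 (1 / 16), ∀ j, 1 / 16 ≤ x j ∧ x j ≤ 3 / 16 := by
    intro x hx j
    have h1 : dist (x j) (x0 j) ≤ 1 / 16 := (dist_le_pi_dist x x0 j).trans hx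
    rw [Real.dist_eq, abs_le] at h1
    simp only [hx0] at h1
    constructor <;> linarith [h1.1, h1.2]
  have hcub : ∀ x ∈ tsupport g0, x ∈ cube n ∧ x ∉ Ω := by
    intro x hx
    have h1 := hball x (hg0t hx)
    refine ⟨fun j => ⟨by linarith [(h1 j).1], by linarith [(h1 j).2]⟩, fun h => ?_⟩
    have h2 := (hΩ h i₀).1
    linarith [(h1 i₀).2]
  have hts : tsupport (fun x => ((g0 x : ℝ) : ℂ)) ⊆ tsupport g0 :=
    closure_mono fun x hx => by
      rw [Function.mem_support] at hx ⊢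
      intro h
      exact hx (by rw [h, Complex.ofReal_zero])
  have hk := ht (fun x => ((g0 x : ℝ) : ℂ)) (Complex.ofRealCLM.contDiff.comp hg0s)
    (fun x hx => (hcub x (hts hx)).1) (hg0c.comp_left Complex.ofReal_zero) (fun x hx => by
      have : x ∉ tsupport g0 := fun h => (hcub x h).2 hx
      rw [image_eq_zero_of_notMem_tsupport this, Complex.ofReal_zero])
  have e : ∀ x, ((g0 x : ℝ) : ℂ) * f x = ((g0 x : ℝ) : ℂ) * c0 := by
    intro x
    by_cases h : x ∈ tsupport g0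
    · rw [h0 x (hcub x h).1 (hcub x h).2]
    · rw [image_eq_zero_of_notMem_tsupport h, Complex.ofReal_zero, zero_mul, zero_mul]
  simp_rw [e] at hk
  rw [integral_mul_const, integral_complex_ofReal, hg0i, Complex.ofReal_one, one_mul] at hk
  exact hk

/-- **C_OF.** -/
theorem ofc (hBA : RowBAC) (hID : RowIDC) : RowOFC := by
  intro n B
  obtain ⟨C, hC1, hC⟩ := solver n B
  refine ⟨C, hC1, ?_⟩
  intro i₀ e ξ he hξ hX Ω φ q₀ t q hb hB c₀ c u₀ u hu₀ hu
  obtain ⟨hq0b, hqb, hqq⟩ := hBA.2.2.1 Ω φ q₀ t q hb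
  have hΩ : Ω ⊆ core n := hb.sub.trans bal_core
  have hcc := LR.H27.core_sub_cube n
  have hq0 : ∀ x ∉ core n, q₀ x = 0 := fun x hx => hq0b x fun h => hx (bal_core h)
  have hq : ∀ x ∉ core n, q x = 0 := fun x hx => hqb x fun h => hx (bal_core h)
  have hus := SolQ_smooth hu
  have hu₀s := SolQ_smooth hu₀
  set z := zs e i₀ ξ with hz
  set θ := th0 i₀ with hθ
  obtain ⟨haR, hD⟩ := SolQ_sub hu hu₀
  set a : Ix n → ℂ := fun k => c k + (-1) * c₀ k with ha
  have hDs : ContDiff ℝ ∞ (vv z θ a) := vv_smooth haR z θ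
  suffices hmain : ∀ x ∈ cube n, x ∉ Ω → vv z θ a x = 0 by
    intro x hx hxΩ
    have h1 := hD x
    rw [hmain x hx hxΩ] at h1
    exact sub_eq_zero.1 h1
  refine zero_of_test i₀ Ω hb.reg hΩ hDs.continuous ?_
  intro ψ hψ hψs hψc hψΩ
  obtain ⟨d, hdR, hv⟩ := hC i₀ e ξ he hξ hX q₀ hb.ba.sq hq0 hB ψ hψ hψs
  set v : V n → ℂ := vv (fun j => -z j) (-θ) d with hvdef
  have hvs : ContDiff ℝ ∞ v := vv_smooth hdR _ _
  have hv' : ∀ x ∈ cube n, dv (fun _ => 1) v x - (q₀ x : ℂ) * v x = ψ x := hv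
  have hψcube : ∀ x ∉ cube n, ψ x = 0 := fun x hx =>
    image_eq_zero_of_notMem_tsupport fun h => hx (hψs h)
  have hmc : MeasurableSet (cube n) := (LR.H27.isOpen_cube n).measurableSet
  -- integrability
  have hq0c : HasCompactSupport fun x => (q₀ x : ℂ) := LR.H27.hcs_of_core fun x hx => by
    rw [hq0 x hx, Complex.ofReal_zero]
  have hqc : HasCompactSupport fun x => ((q x - q₀ x : ℝ) : ℂ) := LR.H27.hcs_of_core fun x hx => by
    rw [hq x hx, hq0 x hx, sub_zero, Complex.ofReal_zero]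
  have iq0 : IntegrableOn (fun x => (q₀ x : ℂ) * (vv z θ a x * v x)) (cube n) :=
    (((cx_smooth hb.ba.sq).continuous.mul
      (hDs.continuous.mul hvs.continuous)).integrable_of_hasCompactSupport
      hq0c.mul_right).integrableOn
  have iq : Integrable fun x => ((q x - q₀ x : ℝ) : ℂ) * (u x * v x) :=
    (((cx_smooth (hb.sq.sub hb.ba.sq)).continuous.mul
      (hus.continuous.mul hvs.continuous)).integrable_of_hasCompactSupport hqc.mul_right)
  have iD1 : IntegrableOn (fun x => vv z θ a x * dv (fun _ => 1) v x) (cube n) := by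
    simp_rw [hvdef, dv_vv hdR]
    exact intOn_vv haR (rd_sb hdR _ _) z θ
  have iD2 : IntegrableOn (fun x => dv (fun _ => 1) (vv z θ a) x * v x) (cube n) := by
    simp_rw [dv_vv haR]
    exact intOn_vv (rd_sb haR _ _) hdR z θ
  -- the computation
  have e1 : ∫ x, ψ x * vv z θ a x =
      ∫ x in cube n, (vv z θ a x * dv (fun _ => 1) v x - (q₀ x : ℂ) * (vv z θ a x * v x)) := by
    rw [← LR.H27.int_cube_of_supp fun x hx => by rw [hψcube x hx, zero_mul]]
    refine setIntegral_congr_fun hmc fun x hx => ?_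
    change ψ x * vv z θ a x =
      vv z θ a x * dv (fun _ => 1) v x - (q₀ x : ℂ) * (vv z θ a x * v x)
    rw [← hv' x hx]
    ring
  have e2 : ∫ x in cube n, vv z θ a x * dv (fun _ => 1) v x =
      ∫ x in cube n, dv (fun _ => 1) (vv z θ a) x * v x := green_vv haR hdR z θ
  rw [e1, integral_sub iD1 iq0, e2, ← integral_sub iD2 iq0]
  -- on the cube
  have hts : SmM t := hb.sm
  have e3 : ∀ x ∈ cube n, dv (fun _ => 1) (vv z θ a) x * v x - (q₀ x : ℂ) * (vv z θ a x * v x) =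
      ((q x - q₀ x : ℝ) : ℂ) * (u x * v x) - v x * dv (fun y => t y - 1) u x := by
    intro x hx
    have h1 : vv z θ a = fun y => u y - u₀ y := funext fun y => (hD y).symm
    have h2 : dv (fun _ => 1) (vv z θ a) x = dv (fun _ => 1) u x - dv (fun _ => 1) u₀ x := by
      rw [h1]
      exact dv_sub_fun smM_one hus hu₀s x
    have h3 := hu.eq x hx
    have h4 := hu₀.eq x hx
    have h5 := dv_sub_one hts hus x
    rw [h2, h5, h3, h4, ← hD x]
    push_cast
    ring
  rw [setIntegral_congr_fun hmc e3]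
  have hs0 : ∀ x ∉ Ω, (fun y => t y - 1) x = (0 : Matrix (Fin n) (Fin n) ℝ) := fun x hx => by
    simp only [hb.off x hx, sub_self]
  obtain ⟨i3, e4⟩ := int_dv hΩ (smM_sub1 hts) hs0 hus hvs
  have hdv0 : ∀ x ∉ core n, dv (fun y => t y - 1) u x = 0 := by
    intro x hx
    unfold dv
    refine Finset.sum_eq_zero fun i _ => ?_
    have hcl : IsClosed (core n) := (LR.H27.compact_core n).isClosed
    have h1 : (fun y => ∑ j, (((fun y => t y - 1) y i j : ℝ) : ℂ) * pd j u y) =ᶠ[𝓝 x]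
        fun _ => 0 := by
      filter_upwards [hcl.isOpen_compl.mem_nhds hx] with y hy
      have h2 : t y - 1 = 0 := hs0 y fun h => hy (hΩ h)
      simp only [h2, Matrix.zero_apply, Complex.ofReal_zero, zero_mul, Finset.sum_const_zero]
    rw [LR.H27.pd_congr h1 i]
    unfold pd
    simp
  rw [LR.H27.int_cube_of_supp (fun x hx => by
    have h : x ∉ core n := fun h => hx (hcc h)
    rw [hdv0 x h, hq x h, hq0 x h]
    simp), integral_sub iq i3, e4]
  -- the identity
  have h7 := hID Ω φ q₀ t q hb v u hvs hus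
    (fun x hx => by
      have h8 := hv' x (hcc (hΩ hx))
      rw [hψΩ x hx] at h8
      exact sub_eq_zero.1 h8)
    (fun x hx => hu.eq x (hcc (hΩ hx)))
  have e5 : ∫ x, ((q x - q₀ x : ℝ) : ℂ) * (u x * v x) =
      ∫ x in Ω, ((q x - q₀ x : ℝ) : ℂ) * v x * u x := by
    rw [← setIntegral_eq_integral_of_forall_compl_eq_zero (s := Ω) fun x hx => by
      rw [hqq x hx, sub_self, Complex.ofReal_zero, zero_mul]]
    congr 1
    funext x
    ring
  rw [e5, sub_neg_eq_add, add_comm]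
  exact h7

end Vale.Agent.P088.H947
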