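import Vale.Agent.P088.H639.KCD
import Vale.Agent.P088.H535.USmk
import Vale.Agent.P088.H91.UInv
import Vale.Agent.P088.H159.USm
import Vale.Agent.P088.H378.KGs

/-!
# P088, theorem JB, row K_CON: smallness after the Kelvin transform, uniformly in the centre
-/

open MeasureTheory Set Filter Topology
open scoped ContDiff Matrix

noncomputable section

namespace Vale.Agent.P088.H947.KSm

open Vale.Agent.P088.LR Vale.Agent.P088.LR.B Vale.Agent.P088.LR.CF Vale.Agent.P088.LR.U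
  Vale.Agent.P088.LR.H158 Vale.Agent.P088.H639.Kv Vale.Agent.P088.H639.KC

variable {n N : ℕ}

/-! ### `1/σ` -/

theorem isig (n k : ℕ) : ∃ ε₀ > 0, ∀ σ : V n → ℝ, SmP σ → ∀ δ, 0 ≤ δ → δ ≤ ε₀ →
    Cl k δ (fun x => σ x - 1) → Cl k 2 (fun x => (((σ x)⁻¹ : ℝ) : ℂ)) := by
  obtain ⟨C, ε₀, hC, hε₀, h⟩ := LR.U.H91.inv n 1 k
  refine ⟨min ε₀ C⁻¹, lt_min hε₀ (inv_pos.2 hC), ?_⟩
  intro σ hσ δ hδ0 hδ hcl
  have hF : SmC (fun x => ((σ x : ℝ) : ℂ) • (1 : Matrix (Fin 1) (Fin 1) ℂ)) := fun a b => by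
    simp only [Matrix.smul_apply, smul_eq_mul]
    exact (Complex.ofRealCLM.contDiff.comp hσ.1).mul contDiff_const
  have hF1 : ClC k δ (fun x => ((σ x : ℝ) : ℂ) • (1 : Matrix (Fin 1) (Fin 1) ℂ) - 1) := by
    intro a b
    have hab : a = b := Subsingleton.elim a b
    subst hab
    have h1 := H159.cl_ofF (hσ.1.sub contDiff_const) hcl
    have e : (fun x => (((σ x : ℝ) : ℂ) • (1 : Matrix (Fin 1) (Fin 1) ℂ) - 1) a a) =
        fun x => ((σ x - 1 : ℝ) : ℂ) := by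
      funext x
      simp only [Matrix.sub_apply, Matrix.smul_apply, Matrix.one_apply_eq, smul_eq_mul]
      push_cast
      ring
    rw [e]
    exact h1
  obtain ⟨-, hs, hc⟩ := h _ hF δ hδ0 (hδ.trans (min_le_left _ _)) hF1
  have hinv : ∀ x, (((σ x : ℝ) : ℂ) • (1 : Matrix (Fin 1) (Fin 1) ℂ))⁻¹ =
      (((σ x)⁻¹ : ℝ) : ℂ) • (1 : Matrix (Fin 1) (Fin 1) ℂ) := by
    intro x
    refine Matrix.inv_eq_right_inv ?_
    have : ((σ x : ℝ) : ℂ) ≠ 0 := by exact_mod_cast (hσ.2 x).ne'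
    rw [Matrix.smul_mul, Matrix.one_mul, smul_smul, Complex.ofReal_inv, mul_inv_cancel₀ this,
      one_smul]
  have hc0 := hc 0 0
  simp only [hinv, Matrix.sub_apply, Matrix.smul_apply, Matrix.one_apply_eq, smul_eq_mul,
    mul_one] at hc0
  have hsm : ContDiff ℝ ∞ fun x => (((σ x)⁻¹ : ℝ) : ℂ) :=
    Complex.ofRealCLM.contDiff.comp (hσ.1.inv fun x => (hσ.2 x).ne')
  have h2 := H535.cl_add (hsm.sub contDiff_const) (contDiff_const (c := (1 : ℂ))) hc0
    (LR.K.H378.cl_cst (k := k) (c := (1 : ℂ)) (b := 1) (by simp))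
  have e2 : (fun x => (((σ x)⁻¹ : ℝ) : ℂ) - 1 + 1) = fun x => (((σ x)⁻¹ : ℝ) : ℂ) := by
    funext x
    ring
  rw [e2] at h2
  refine H535.cl_le h2 le_rfl ?_
  have h3 : C * δ ≤ 1 := by
    have h4 : δ ≤ C⁻¹ := hδ.trans (min_le_right _ _)
    calc C * δ ≤ C * C⁻¹ := mul_le_mul_of_nonneg_left h4 hC.le
      _ = 1 := mul_inv_cancel₀ hC.ne'
  linarith

theorem cl_one_entry {k : ℕ} (α β : Fin N) :
    Cl k 1 (fun _ : V n => (1 : Matrix (Fin N) (Fin N) ℂ) α β) := by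
  refine LR.K.H378.cl_cst ?_
  by_cases h : α = β
  · subst h
    rw [Matrix.one_apply_eq, norm_one]
  · rw [Matrix.one_apply_ne h, norm_zero]
    exact zero_le_one

theorem smC_Gm {σ : V n → ℝ} {A : Cn n N} (hσ : SmP σ) (hA : SmU A) (i : Fin n) :
    SmC (Gm σ A i) := by
  have hl : ContDiff ℝ ∞ fun x => ((pd i σ x / σ x : ℝ) : ℂ) :=
    Complex.ofRealCLM.contDiff.comp ((H158.contDiff_pd hσ.1 i).div hσ.1 fun x => (hσ.2 x).ne')
  intro a b
  unfold Gm
  simp only [Matrix.add_apply, Matrix.smul_apply, smul_eq_mul]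
  exact (contDiff_const.mul (hA.1 i a b)).add (hl.mul contDiff_const)

theorem smC_Vm {σ : V n → ℝ} {A : Cn n N} (hσ : SmP σ) (hA : SmU A) : SmC (Vm σ A) := by
  have hl : ∀ i, ContDiff ℝ ∞ fun x => ((pd i σ x / σ x : ℝ) : ℂ) := fun i =>
    Complex.ofRealCLM.contDiff.comp ((H158.contDiff_pd hσ.1 i).div hσ.1 fun x => (hσ.2 x).ne')
  intro a b
  unfold Vm
  simp only [Matrix.sum_apply, Matrix.add_apply, Matrix.smul_apply, smul_eq_mul]
  refine ContDiff.sum fun i _ => ?_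
  exact ((H158.contDiff_pd (hA.1 i a b) i).add (SmC_mul (hA.1 i) (hA.1 i) a b)).add
    ((hl i).mul (hA.1 i a b))

theorem gv_small (n N k : ℕ) (ε : ℝ) (hε : 0 < ε) : ∃ δ : ℝ, 0 < δ ∧
    ∀ (σ : V n → ℝ) (A : Cn n N), SmP σ → Cl (k + 1) δ (fun x => σ x - 1) → SmU A →
    (∀ i, ClC (k + 1) δ (A i)) → (∀ i, ClC k ε (Gm σ A i)) ∧ ClC k ε (Vm σ A) := by
  obtain ⟨ε₀, hε₀, his⟩ := isig n (k + 1)
  set P : ℝ := 2 ^ k with hP
  have hP0 : 0 < P := by positivity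
  set D : ℝ := (2 + P * (P * 2)) + n * (1 + N * P + P * (P * 2)) + 1 with hD
  have hD0 : 0 < D := by positivity
  refine ⟨min (min 1 ε₀) (ε / D), lt_min (lt_min one_pos hε₀) (div_pos hε hD0), ?_⟩
  intro σ A hσ hσk hA hAk
  set δ : ℝ := min (min 1 ε₀) (ε / D) with hδ
  have hδ0 : 0 < δ := lt_min (lt_min one_pos hε₀) (div_pos hε hD0)
  have hδ1 : δ ≤ 1 := (min_le_left _ _).trans (min_le_left _ _)
  have hδe : δ ≤ ε₀ := (min_le_left _ _).trans (min_le_right _ _)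
  have hδD : D * δ ≤ ε := by
    have : δ ≤ ε / D := min_le_right _ _
    rw [le_div_iff₀ hD0] at this
    linarith
  have hinv : Cl k 2 (fun x => (((σ x)⁻¹ : ℝ) : ℂ)) :=
    H535.cl_le (his σ hσ δ hδ0.le hδe hσk) (Nat.le_succ k) le_rfl
  have hsinv : ContDiff ℝ ∞ fun x => (((σ x)⁻¹ : ℝ) : ℂ) :=
    Complex.ofRealCLM.contDiff.comp (hσ.1.inv fun x => (hσ.2 x).ne')
  have hpd : ∀ i, Cl k δ (fun x => ((pd i σ x : ℝ) : ℂ)) := by
    intro i
    have h1 := H159.cl_pdF (hσ.1.sub (contDiff_const (c := (1 : ℝ)))) hσk i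
    rw [H159.pd_subc] at h1
    exact H159.cl_ofF (H158.contDiff_pd hσ.1 i) h1
  have hpds : ∀ i, ContDiff ℝ ∞ fun x => ((pd i σ x : ℝ) : ℂ) := fun i =>
    Complex.ofRealCLM.contDiff.comp (H158.contDiff_pd hσ.1 i)
  have hls : ∀ i, ContDiff ℝ ∞ fun x => ((pd i σ x / σ x : ℝ) : ℂ) := fun i =>
    Complex.ofRealCLM.contDiff.comp ((H158.contDiff_pd hσ.1 i).div hσ.1 fun x => (hσ.2 x).ne')
  have hl : ∀ i, Cl k (P * (δ * 2)) (fun x => ((pd i σ x / σ x : ℝ) : ℂ)) := by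
    intro i
    have h1 := H535.cl_mul (hpds i) hsinv (hpd i) hinv
    have e : (fun y => ((pd i σ y : ℝ) : ℂ) * (((σ y)⁻¹ : ℝ) : ℂ)) =
        fun x => ((pd i σ x / σ x : ℝ) : ℂ) := by
      funext x
      rw [div_eq_mul_inv]
      push_cast
      ring
    rw [e] at h1
    exact h1
  have hAk' : ∀ i, ClC k δ (A i) := fun i a b => H535.cl_le (hAk i a b) (Nat.le_succ k) le_rfl
  refine ⟨fun i α β => ?_, fun α β => ?_⟩
  · have h1 : Cl k (2 * δ) (fun x => (2 : ℂ) * A i x α β) := by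
      have h2 := H535.cl_add (hA.1 i α β) (hA.1 i α β) (hAk' i α β) (hAk' i α β)
      have e : (fun y => A i y α β + A i y α β) = fun x => (2 : ℂ) * A i x α β := by
        funext x
        ring
      rw [e] at h2
      exact H535.cl_le h2 le_rfl (by linarith)
    have h3 := H535.cl_mul (hls i) (contDiff_const (c := (1 : Matrix (Fin N) (Fin N) ℂ) α β))
      (hl i) (cl_one_entry (k := k) α β)
    have h4 := H535.cl_add (contDiff_const.mul (hA.1 i α β)) ((hls i).mul contDiff_const) h1 h3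
    have e : (fun x => Gm σ A i x α β) = fun y => (2 : ℂ) * A i y α β +
        ((pd i σ y / σ y : ℝ) : ℂ) * (1 : Matrix (Fin N) (Fin N) ℂ) α β := by
      funext x
      simp only [Gm, Matrix.add_apply, Matrix.smul_apply, smul_eq_mul]
    rw [e]
    refine H535.cl_le h4 le_rfl ?_
    have h5 : 0 ≤ (n * (1 + N * P + P * (P * 2)) + 1) * δ := by positivity
    have h6 : 2 * δ + 2 ^ k * (P * (δ * 2) * 1) = D * δ -
        (n * (1 + N * P + P * (P * 2)) + 1) * δ := by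
      rw [hD, hP]
      ring
    rw [h6]
    linarith
  · have h1 : ∀ i, Cl k δ (fun x => pdm i (A i) x α β) := fun i =>
      H159.cl_pdF (hA.1 i α β) (hAk i α β) i
    have h2 : ∀ i, Cl k (N * (2 ^ k * (δ * δ))) (fun x => (A i x * A i x) α β) := fun i =>
      LR.K.H378.clC_mul (hA.1 i) (hA.1 i) (hAk' i) (hAk' i) α β
    have h3 : ∀ i, Cl k (2 ^ k * (P * (δ * 2) * δ))
        (fun x => ((pd i σ x / σ x : ℝ) : ℂ) * A i x α β) := fun i =>
      H535.cl_mul (hls i) (hA.1 i α β) (hl i) (hAk' i α β)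
    have s1 : ∀ i, ContDiff ℝ ∞ (fun x => pdm i (A i) x α β) := fun i =>
      H158.contDiff_pd (hA.1 i α β) i
    have s2 : ∀ i, ContDiff ℝ ∞ (fun x => (A i x * A i x) α β) := fun i =>
      SmC_mul (hA.1 i) (hA.1 i) α β
    have s3 : ∀ i, ContDiff ℝ ∞ (fun x => ((pd i σ x / σ x : ℝ) : ℂ) * A i x α β) := fun i =>
      (hls i).mul (hA.1 i α β)
    have h4 := H535.cl_sum (Finset.univ : Finset (Fin n))
      (fun i => ((s1 i).add (s2 i)).add (s3 i))
      (fun i => H535.cl_add ((s1 i).add (s2 i)) (s3 i)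
        (H535.cl_add (s1 i) (s2 i) (h1 i) (h2 i)) (h3 i))
    rw [Finset.card_univ, Fintype.card_fin] at h4
    have e : (fun x => Vm σ A x α β) = fun y => ∑ i, (pdm i (A i) y α β +
        (A i y * A i y) α β + ((pd i σ y / σ y : ℝ) : ℂ) * A i y α β) := by
      funext x
      simp only [Vm, Matrix.sum_apply, Matrix.add_apply, Matrix.smul_apply, smul_eq_mul]
    rw [e]
    refine H535.cl_le h4 le_rfl ?_
    have hδδ : δ * δ ≤ δ := by nlinarith
    have h5 : δ + N * (2 ^ k * (δ * δ)) + 2 ^ k * (P * (δ * 2) * δ) ≤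
        (1 + N * P + P * (P * 2)) * δ := by
      have h6 : (N : ℝ) * (2 ^ k * (δ * δ)) ≤ N * P * δ := by
        rw [← hP, mul_assoc]
        exact mul_le_mul_of_nonneg_left (mul_le_mul_of_nonneg_left hδδ hP0.le) (by positivity)
      have h7 : 2 ^ k * (P * (δ * 2) * δ) ≤ P * (P * 2) * δ := by
        rw [← hP]
        have : P * (P * (δ * 2) * δ) = P * (P * 2) * (δ * δ) := by ring
        rw [this]
        exact mul_le_mul_of_nonneg_left hδδ (by positivity)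
      linarith
    have h8 : (n : ℝ) * (δ + N * (2 ^ k * (δ * δ)) + 2 ^ k * (P * (δ * 2) * δ)) ≤
        n * ((1 + N * P + P * (P * 2)) * δ) := mul_le_mul_of_nonneg_left h5 (by positivity)
    refine h8.trans ?_
    have h9 : 0 ≤ ((2 + P * (P * 2)) + 1) * δ := by positivity
    have h10 : n * ((1 + N * P + P * (P * 2)) * δ) = D * δ - ((2 + P * (P * 2)) + 1) * δ := by
      rw [hD]
      ring
    rw [h10]
    linarith

/-! ### composition with a fixed map, uniformly in the centre -/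

theorem comp_small {Θ : V n → V n} (hΘ : ContDiff ℝ ∞ Θ) {k : ℕ} {D : ℝ} (hD : 1 ≤ D)
    (hDΘ : ∀ i, 1 ≤ i → i ≤ k → ∀ y, ‖iteratedFDeriv ℝ i Θ y‖ ≤ D ^ i) (q : V n) {f : V n → ℂ}
    (hf : ContDiff ℝ ∞ f) {δ : ℝ} (h : Cl k δ f) :
    Cl k ((k.factorial : ℝ) * D ^ k * δ) (fun y => f (q + Θ y)) := by
  have hf' : ContDiff ℝ ∞ fun z => f (q + z) := hf.comp (contDiff_const.add contDiff_id)
  refine H535.cl_comp (f := fun z => f (q + z)) hD hΘ hDΘ hf' ?_
  intro l hl x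
  rw [iteratedFDeriv_comp_add_left]
  exact h l hl _

theorem exists_D {Θ : V n → V n} (hΘ : ContDiff ℝ ∞ Θ) (hc : HasCompactSupport Θ) (k : ℕ) :
    ∃ D : ℝ, 1 ≤ D ∧ ∀ i, 1 ≤ i → i ≤ k → ∀ y, ‖iteratedFDeriv ℝ i Θ y‖ ≤ D ^ i := by
  have h : ∀ l : ℕ, ∃ C, ∀ x, ‖iteratedFDeriv ℝ l Θ x‖ ≤ C := fun l =>
    (hΘ.continuous_iteratedFDeriv (by exact_mod_cast le_top)).bounded_above_of_compact_support
      (hc.iteratedFDeriv l)
  choose C hC using h
  have h1 : 1 ≤ 1 + ∑ l ∈ Finset.range (k + 1), |C l| := by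
    have : 0 ≤ ∑ l ∈ Finset.range (k + 1), |C l| := Finset.sum_nonneg fun _ _ => abs_nonneg _
    linarith
  refine ⟨1 + ∑ l ∈ Finset.range (k + 1), |C l|, h1, fun i hi hik y => ?_⟩
  calc ‖iteratedFDeriv ℝ i Θ y‖ ≤ C i := hC i y
    _ ≤ |C i| := le_abs_self _
    _ ≤ ∑ l ∈ Finset.range (k + 1), |C l| :=
      Finset.single_le_sum (f := fun l => |C l|) (fun i _ => abs_nonneg _)
        (Finset.mem_range.mpr (by omega))
    _ ≤ 1 + ∑ l ∈ Finset.range (k + 1), |C l| := by linarith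
    _ = (1 + ∑ l ∈ Finset.range (k + 1), |C l|) ^ 1 := (pow_one _).symm
    _ ≤ (1 + ∑ l ∈ Finset.range (k + 1), |C l|) ^ i := pow_le_pow_right₀ h1 hi

theorem exists_cl {k : ℕ} {f : V n → ℂ} (hf : ContDiff ℝ ∞ f) (hc : HasCompactSupport f) :
    ∃ B : ℝ, 0 ≤ B ∧ Cl k B f := by
  have h : ∀ l : ℕ, ∃ C, ∀ x, ‖iteratedFDeriv ℝ l f x‖ ≤ C := fun l =>
    (hf.continuous_iteratedFDeriv (by exact_mod_cast le_top)).bounded_above_of_compact_support
      (hc.iteratedFDeriv l)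
  choose C hC using h
  refine ⟨∑ l ∈ Finset.range (k + 1), |C l|, Finset.sum_nonneg fun _ _ => abs_nonneg _,
    fun l hl x => ?_⟩
  calc ‖iteratedFDeriv ℝ l f x‖ ≤ C l := hC l x
    _ ≤ |C l| := le_abs_self _
    _ ≤ ∑ l ∈ Finset.range (k + 1), |C l| :=
      Finset.single_le_sum (f := fun l => |C l|) (fun i _ => abs_nonneg _)
        (Finset.mem_range.mpr (by omega))

/-- The cut-off times `g`. -/
def ct (δ : ℝ) (b : V n → ℝ) (g : V n → ℂ) (y : V n) : ℂ :=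
  (H639.chi 0 δ y : ℂ) * (((b y : ℝ) : ℂ) * g y)

theorem ct_smooth {δ : ℝ} (hδ : 0 < δ) {b : V n → ℝ} (hb : ContDiff ℝ ∞ b) {g : V n → ℂ}
    (hg : ∀ y, 0 < S 0 y → ContDiffAt ℝ ∞ g y) : ContDiff ℝ ∞ (ct δ b g) :=
  cut_contDiff 0 hδ fun y hy =>
    (Complex.ofRealCLM.contDiff.comp hb).contDiffAt.mul (hg y hy)

theorem ct_supp {δ : ℝ} {b : V n → ℝ} (hb : HasCompactSupport b) {g : V n → ℂ} :
    HasCompactSupport (ct δ b g) := by
  refine hb.mono fun y hy h0 => hy ?_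
  have h0' : b y = 0 := h0
  unfold ct
  rw [h0']
  simp

/-- The cut-off inversion. -/
def Th (δ : ℝ) (b : V n → ℝ) (y : V n) : V n :=
  fun j => (ct δ b (fun y => ((y j / S 0 y : ℝ) : ℂ)) y).re

theorem smi (y : V n) (hy : 0 < S 0 y) : ContDiffAt ℝ ∞ (fun y : V n => (S 0 y)⁻¹) y :=
  (S_contDiff 0).contDiffAt.inv hy.ne'

theorem Th_smooth {δ : ℝ} (hδ : 0 < δ) {b : V n → ℝ} (hb : ContDiff ℝ ∞ b) :
    ContDiff ℝ ∞ (Th δ b) := by
  rw [contDiff_pi]
  intro j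
  refine Complex.reCLM.contDiff.comp (ct_smooth hδ hb fun y hy => ?_)
  simp only [div_eq_mul_inv]
  exact Complex.ofRealCLM.contDiff.contDiffAt.comp y
    (ContDiffAt.mul (contDiff_apply ℝ ℝ j).contDiffAt (smi y hy))

theorem Th_supp {δ : ℝ} {b : V n → ℝ} (hb : HasCompactSupport b) :
    HasCompactSupport (Th δ b) := by
  refine hb.mono fun y hy h0 => hy ?_
  have h0' : b y = 0 := h0
  funext j
  unfold Th ct
  rw [h0']
  simp

/-- **Row KC_SM.** -/
theorem sm : RowSm := by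
  intro n N r B hr hB k ε hε
  set δ₀ : ℝ := √(1 / B) with hδ₀
  have hδ₀0 : 0 < δ₀ := Real.sqrt_pos.mpr (by positivity)
  have hδ₀2 : δ₀ ^ 2 = 1 / B := Real.sq_sqrt (by positivity)
  let bf : ContDiffBump (0 : V n) := ⟨1 / r, 1 / r + 1, by positivity, by linarith⟩
  set b : V n → ℝ := fun y => bf y with hb
  have hbs : ContDiff ℝ ∞ b := bf.contDiff
  have hbc : HasCompactSupport b := bf.hasCompactSupport
  have hb1 : ∀ y : V n, ‖y‖ ≤ 1 / r → b y = 1 := fun y hy =>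
    bf.one_of_mem_closedBall (by rw [mem_closedBall_zero_iff]; exact hy)
  set Θ : V n → V n := Th δ₀ b with hΘd
  have hΘ : ContDiff ℝ ∞ Θ := Th_smooth hδ₀0 hbs
  obtain ⟨D, hD1, hD⟩ := exists_D hΘ (Th_supp hbc) k
  -- the coefficient functions
  set gm : Fin n → Fin n → V n → ℂ := fun i c y =>
    (((if i = c then (S 0 y)⁻¹ else 0) - 2 * y i * y c * (S 0 y)⁻¹ ^ 2 : ℝ) : ℂ) with hgm
  set gc : Fin n → V n → ℂ := fun i y => ((2 * al n * y i * (S 0 y)⁻¹ ^ 2 : ℝ) : ℂ) with hgc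
  set ge : V n → ℂ := fun y => (((S 0 y)⁻¹ ^ 2 : ℝ) : ℂ) with hge
  have hyi : ∀ i : Fin n, ContDiff ℝ ∞ fun y : V n => y i := fun i => contDiff_apply ℝ ℝ i
  have sgm : ∀ i c y, 0 < S 0 y → ContDiffAt ℝ ∞ (gm i c) y := by
    intro i c y hy
    refine Complex.ofRealCLM.contDiff.contDiffAt.comp y (ContDiffAt.sub ?_ ?_)
    · split_ifs
      · exact smi y hy
      · exact contDiffAt_const
    · exact ((contDiffAt_const.mul (hyi i).contDiffAt).mul (hyi c).contDiffAt).mul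
        ((smi y hy).pow 2)
  have sgc : ∀ i y, 0 < S 0 y → ContDiffAt ℝ ∞ (gc i) y := by
    intro i y hy
    refine Complex.ofRealCLM.contDiff.contDiffAt.comp y ?_
    exact (contDiffAt_const.mul (hyi i).contDiffAt).mul ((smi y hy).pow 2)
  have sge : ∀ y, 0 < S 0 y → ContDiffAt ℝ ∞ ge y := by
    intro y hy
    exact Complex.ofRealCLM.contDiff.contDiffAt.comp y ((smi y hy).pow 2)
  have Sgm : ∀ i c, ContDiff ℝ ∞ (ct δ₀ b (gm i c)) := fun i c => ct_smooth hδ₀0 hbs (sgm i c)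
  have Sgc : ∀ i, ContDiff ℝ ∞ (ct δ₀ b (gc i)) := fun i => ct_smooth hδ₀0 hbs (sgc i)
  have Sge : ContDiff ℝ ∞ (ct δ₀ b ge) := ct_smooth hδ₀0 hbs sge
  choose Mm hMm0 hMm using fun i c => exists_cl (k := k) (Sgm i c) (ct_supp hbc)
  choose Mc hMc0 hMc using fun i => exists_cl (k := k) (Sgc i) (ct_supp hbc)
  obtain ⟨Me, hMe0, hMe⟩ := exists_cl (k := k) Sge (ct_supp hbc)
  set M : ℝ := (∑ i, ∑ c, Mm i c) + (∑ i, Mc i) + Me with hM
  have hMm1 : ∀ i c, Mm i c ≤ M := by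
    intro i c
    have h1 : Mm i c ≤ ∑ c, Mm i c :=
      Finset.single_le_sum (f := fun c => Mm i c) (fun c _ => hMm0 i c) (Finset.mem_univ c)
    have h2 : ∑ c, Mm i c ≤ ∑ i, ∑ c, Mm i c :=
      Finset.single_le_sum (f := fun i => ∑ c, Mm i c)
        (fun i _ => Finset.sum_nonneg fun c _ => hMm0 i c) (Finset.mem_univ i)
    have h3 : 0 ≤ ∑ i, Mc i := Finset.sum_nonneg fun i _ => hMc0 i
    linarith
  have hMc1 : ∀ i, Mc i ≤ M := by
    intro i
    have h1 : Mc i ≤ ∑ i, Mc i :=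
      Finset.single_le_sum (f := fun i => Mc i) (fun c _ => hMc0 c) (Finset.mem_univ i)
    have h2 : 0 ≤ ∑ i, ∑ c, Mm i c :=
      Finset.sum_nonneg fun i _ => Finset.sum_nonneg fun c _ => hMm0 i c
    linarith
  have hMe1 : Me ≤ M := by
    have h2 : 0 ≤ ∑ i, ∑ c, Mm i c :=
      Finset.sum_nonneg fun i _ => Finset.sum_nonneg fun c _ => hMm0 i c
    have h3 : 0 ≤ ∑ i, Mc i := Finset.sum_nonneg fun i _ => hMc0 i
    linarith
  have hM0 : 0 ≤ M := hMe0.trans hMe1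
  set c₀ : ℝ := (k.factorial : ℝ) * D ^ k with hc₀
  have hc₀0 : 0 < c₀ := by
    have : 0 < D := by linarith
    positivity
  set E : ℝ := (n + 1) * (2 ^ k * (M * c₀)) + 1 with hE
  have hE0 : 0 < E := by positivity
  obtain ⟨δ, hδ, hs⟩ := gv_small n N k (ε / E) (by positivity)
  refine ⟨k + 1, δ, hδ, ?_⟩
  intro σ A hσ hσk hA hAk q
  obtain ⟨hG, hV⟩ := hs σ A hσ hσk hA hAk
  have sG : ∀ i, SmC (Gm σ A i) := smC_Gm hσ hA
  have sV : SmC (Vm σ A) := smC_Vm hσ hA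
  have hqΘ : ContDiff ℝ ∞ fun y => q + Θ y := contDiff_const.add hΘ
  -- one term
  have term : ∀ (f : V n → ℂ) (Mf : ℝ), ContDiff ℝ ∞ f → Cl k Mf f → Mf ≤ M →
      ∀ (G : MC n N), SmC G → ClC k (ε / E) G → ∀ α β,
      ContDiff ℝ ∞ (fun y => f y * G (q + Θ y) α β) ∧
      Cl k (2 ^ k * (M * (c₀ * (ε / E)))) (fun y => f y * G (q + Θ y) α β) := by
    intro f Mf hf hfk hMf G hGs hGk α β
    have h1 : ContDiff ℝ ∞ fun y => G (q + Θ y) α β := (hGs α β).comp hqΘ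
    refine ⟨hf.mul h1, ?_⟩
    exact H535.cl_mul hf h1 (H535.cl_le hfk le_rfl hMf)
      (comp_small hΘ hD1 hD q (hGs α β) (hGk α β))
  have fin1 : (n + 1 : ℝ) * (2 ^ k * (M * (c₀ * (ε / E)))) ≤ ε := by
    have h1 : (n + 1 : ℝ) * (2 ^ k * (M * (c₀ * (ε / E)))) = (E - 1) * (ε / E) := by
      rw [hE]
      ring
    rw [h1, sub_mul, mul_div_cancel₀ _ hE0.ne', one_mul]
    have : 0 < ε / E := by positivity
    linarith
  have pos1 : 0 ≤ (2 : ℝ) ^ k * (M * (c₀ * (ε / E))) := by positivity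
  refine ⟨fun c y => ∑ i, ct δ₀ b (gm i c) y • Gm σ A i (q + Θ y),
    fun y => ∑ i, ct δ₀ b (gc i) y • Gm σ A i (q + Θ y) + ct δ₀ b ge y • Vm σ A (q + Θ y),
    ?_, ?_, ?_, ?_, ?_⟩
  · intro c α β
    simp only [Matrix.sum_apply, Matrix.smul_apply, smul_eq_mul]
    exact ContDiff.sum fun i _ =>
      (term _ _ (Sgm i c) (hMm i c) (hMm1 i c) _ (sG i) (hG i) α β).1
  · intro α β
    simp only [Matrix.add_apply, Matrix.sum_apply, Matrix.smul_apply, smul_eq_mul]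
    exact (ContDiff.sum fun i _ =>
      (term _ _ (Sgc i) (hMc i) (hMc1 i) _ (sG i) (hG i) α β).1).add
        (term _ _ Sge hMe hMe1 _ sV hV α β).1
  · intro c α β
    simp only [Matrix.sum_apply, Matrix.smul_apply, smul_eq_mul]
    have h1 := H535.cl_sum (Finset.univ : Finset (Fin n))
      (fun i => (term _ _ (Sgm i c) (hMm i c) (hMm1 i c) _ (sG i) (hG i) α β).1)
      (fun i => (term _ _ (Sgm i c) (hMm i c) (hMm1 i c) _ (sG i) (hG i) α β).2)
    rw [Finset.card_univ, Fintype.card_fin] at h1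
    refine H535.cl_le h1 le_rfl ?_
    linarith
  · intro α β
    simp only [Matrix.add_apply, Matrix.sum_apply, Matrix.smul_apply, smul_eq_mul]
    have h1 := H535.cl_sum (Finset.univ : Finset (Fin n))
      (fun i => (term _ _ (Sgc i) (hMc i) (hMc1 i) _ (sG i) (hG i) α β).1)
      (fun i => (term _ _ (Sgc i) (hMc i) (hMc1 i) _ (sG i) (hG i) α β).2)
    rw [Finset.card_univ, Fintype.card_fin] at h1
    have h2 := H535.cl_add (ContDiff.sum fun i _ =>
      (term _ _ (Sgc i) (hMc i) (hMc1 i) _ (sG i) (hG i) α β).1)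
        (term _ _ Sge hMe hMe1 _ sV hV α β).1 h1 (term _ _ Sge hMe hMe1 _ sV hV α β).2
    refine H535.cl_le h2 le_rfl ?_
    linarith
  · intro x hrx hxB
    have hS : 0 < S q x := lt_of_lt_of_le (by positivity) hrx
    have hS' : S q x ≠ 0 := hS.ne'
    have hSY : S 0 (Yv q x) = 1 / S q x := S_Y hS
    have hchi : H639.chi 0 δ₀ (Yv q x) = 1 := by
      refine chi_one hδ₀0 ?_
      rw [hSY, hδ₀2]
      exact one_div_le_one_div_of_le hS hxB
    have hbY : b (Yv q x) = 1 := hb1 _ (norm_Y hr hrx)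
    have hct : ∀ g : V n → ℂ, ct δ₀ b g (Yv q x) = g (Yv q x) := by
      intro g
      unfold ct
      rw [hchi, hbY]
      simp
    have hΘx : q + Θ (Yv q x) = x := by
      funext j
      show q j + (ct δ₀ b (fun y => ((y j / S 0 y : ℝ) : ℂ)) (Yv q x)).re = x j
      rw [hct, Complex.ofReal_re]
      exact congrFun (Z_Y hS) j
    have hYj : ∀ j, Yv q x j = (x j - q j) / S q x := fun j => rfl
    refine ⟨fun c => ?_, ?_⟩
    · show ∑ i, ct δ₀ b (gm i c) (Yv q x) • Gm σ A i (q + Θ (Yv q x)) = _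
      rw [hΘx]
      unfold Lx
      refine Finset.sum_congr rfl fun i _ => ?_
      rw [hct]
      congr 1
      simp only [hgm]
      rw [hSY, hYj, hYj]
      congr 1
      split_ifs
      · field_simp
      · field_simp
    · show ∑ i, ct δ₀ b (gc i) (Yv q x) • Gm σ A i (q + Θ (Yv q x)) +
        ct δ₀ b ge (Yv q x) • Vm σ A (q + Θ (Yv q x)) = _
      rw [hΘx]
      unfold Qx
      congr 1
      · refine Finset.sum_congr rfl fun i _ => ?_
        rw [hct]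
        congr 1
        simp only [hgc]
        rw [hSY, hYj]
        congr 1
        field_simp
      · rw [hct]
        congr 1
        simp only [hge]
        rw [hSY]
        congr 1
        field_simp

end Vale.Agent.P088.H947.KSm
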