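import Vale.Agent.P088.H198.K.Defs
import Vale.Agent.P088.H292.UPush
import Vale.Agent.P088.H924.Frame

/-!
# P088, joint local uniqueness without a condition at the boundary: gauge transport (row K_GA)
-/

open MeasureTheory Set
open scoped ContDiff Matrix

noncomputable section

namespace Vale.Agent.P088.H947.KG

open Vale.Agent.P088.LR Vale.Agent.P088.LR.H158 Vale.Agent.P088.LR.U Vale.Agent.P088.LR.K

variable {n N : ℕ}

theorem smU_gA {U : MC n N} {A : Cn n N} (hU : SmC U) (hA : SmU A)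
    (hu : ∀ x, (U x)ᴴ * U x = 1) : SmU (gA U A) := by
  refine ⟨fun i => H924.smC_add (SmC_mul (SmC_mul (SmC_star hU) (hA.1 i)) hU)
    (SmC_mul (SmC_star hU) (H924.smC_pdm hU i)), fun i x => ?_⟩
  have h1 : (pdm i U x)ᴴ * U x + (U x)ᴴ * pdm i U x = 0 := by
    have h := pdm_mul (SmC_star hU) hU i x
    rw [pdm_star hU] at h
    have h2 : (fun x => (U x)ᴴ * U x) = fun _ => 1 := funext hu
    rw [← h, h2, pdm_const]
  unfold gA
  rw [Matrix.conjTranspose_add, Matrix.conjTranspose_mul, Matrix.conjTranspose_mul,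
    Matrix.conjTranspose_mul, Matrix.conjTranspose_conjTranspose, hA.2 i x]
  have h3 : (pdm i U x)ᴴ * U x = -((U x)ᴴ * pdm i U x) := eq_neg_of_add_eq_zero_left h1
  rw [h3]
  noncomm_ring

theorem cd_gA {U : MC n N} (hU : SmC U) (hu : ∀ x, (U x)ᴴ * U x = 1) (A : Cn n N)
    {v : V n → Fin N → ℂ} (hv : ContDiff ℝ ∞ v) (j : Fin n) (x : V n) :
    cd (gA U A) j v x = (U x)ᴴ *ᵥ cd A j (fun y => U y *ᵥ v y) x := by
  unfold cd gA
  rw [pd_mulVec hU hv, Matrix.mulVec_add, Matrix.mulVec_add, Matrix.mulVec_mulVec,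
    Matrix.mulVec_mulVec, Matrix.mulVec_mulVec, Matrix.mulVec_mulVec, hu x, Matrix.one_mulVec,
    Matrix.add_mulVec]
  abel

theorem lav_gA {U : MC n N} (hU : SmC U) (hu : ∀ x, (U x)ᴴ * U x = 1) {s : MF n} (hs : SmM s)
    {A : Cn n N} (hA : SmU A) {v : V n → Fin N → ℂ} (hv : ContDiff ℝ ∞ v) (x : V n) :
    lav s (gA U A) v x = (U x)ᴴ *ᵥ lav s A (fun y => U y *ᵥ v y) x := by
  have hUv : ContDiff ℝ ∞ fun y => U y *ᵥ v y := contDiff_mulVec hU hv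
  have hu' : ∀ x, U x * (U x)ᴴ = 1 := fun x => mul_eq_one_comm.1 (hu x)
  unfold lav
  rw [Matrix.mulVec_sum]
  refine Finset.sum_congr rfl fun i _ => ?_
  have h1 : (fun y => ∑ j, (s y i j : ℂ) • cd (gA U A) j v y) =
      fun y => (U y)ᴴ *ᵥ ∑ j, (s y i j : ℂ) • cd A j (fun y => U y *ᵥ v y) y := by
    funext y
    rw [Matrix.mulVec_sum]
    refine Finset.sum_congr rfl fun j _ => ?_
    rw [cd_gA hU hu A hv, Matrix.mulVec_smul]
  have hG : ContDiff ℝ ∞ fun y => ∑ j, (s y i j : ℂ) • cd A j (fun y => U y *ᵥ v y) y :=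
    H924.contDiff_Gf hs hA hUv i
  rw [h1, cd_gA hU hu A (contDiff_mulVec (SmC_star hU) hG)]
  congr 2
  funext y
  rw [Matrix.mulVec_mulVec, hu' y, Matrix.one_mulVec]

theorem ea_gA {U : MC n N} (hU : SmC U) (hu : ∀ x, (U x)ᴴ * U x = 1) (Ω : Set (V n)) (s : MF n)
    (A : Cn n N) {u v : V n → Fin N → ℂ} (hu1 : ContDiff ℝ ∞ u) (hv : ContDiff ℝ ∞ v) :
    ea Ω s (gA U A) u v = ea Ω s A (fun y => U y *ᵥ u y) (fun y => U y *ᵥ v y) := by
  have hu' : ∀ x, U x * (U x)ᴴ = 1 := fun x => mul_eq_one_comm.1 (hu x)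
  unfold ea
  congr 1
  funext x
  refine Finset.sum_congr rfl fun i _ => Finset.sum_congr rfl fun j _ => ?_
  rw [cd_gA hU hu A hu1, cd_gA hU hu A hv, H924.adj, Matrix.mulVec_mulVec, hu' x,
    Matrix.one_mulVec]

/-- **Row K_GA.** -/
theorem ga : RowGA := by
  intro n N s A U hs hsym hA hU hu
  have hu' : ∀ x, U x * (U x)ᴴ = 1 := fun x => mul_eq_one_comm.1 (hu x)
  refine ⟨smU_gA hU hA hu, ?_⟩
  intro Ω hΩ hb hU1 s₁ A₁ hs1 hsym1 hA1 hD
  have hz : ∀ {f : V n → Fin N → ℂ}, ∀ x ∈ frontier Ω, U x *ᵥ f x - f x = 0 := by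
    intro f x hx
    rw [hU1 x hx, Matrix.one_mulVec, sub_self]
  refine ⟨?_, ?_⟩
  · intro u v hu1 hv hu0 hv0
    have hUu : ContDiff ℝ ∞ fun y => U y *ᵥ u y := contDiff_mulVec hU hu1
    have hUv : ContDiff ℝ ∞ fun y => U y *ᵥ v y := contDiff_mulVec hU hv
    have hUv0 : ∀ x ∈ Ω, lav s A (fun y => U y *ᵥ v y) x = 0 := by
      intro x hx
      have h1 := hv0 x hx
      rw [lav_gA hU hu hs hA hv] at h1
      have h2 := congrArg (fun z => U x *ᵥ z) h1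
      simp only [Matrix.mulVec_mulVec, hu' x, Matrix.one_mulVec, Matrix.mulVec_zero] at h2
      exact h2
    rw [ea_gA hU hu Ω s A hu1 hv]
    have e2 : ea Ω s A (fun y => U y *ᵥ u y) (fun y => U y *ᵥ v y) =
        ea Ω s A u (fun y => U y *ᵥ v y) := by
      have h1 := H292.UP.wk2 hΩ hb hs hsym hA (φ := fun x => U x *ᵥ u x - u x) hUv
        (hUu.sub hu1) hUv0 hz
      rw [H292.UP.ea_sub_left hb hs hA hUu hu1 hUv] at h1
      exact sub_eq_zero.1 h1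
    have e3 : ea Ω s₁ A₁ u (fun y => U y *ᵥ v y) = ea Ω s A u (fun y => U y *ᵥ v y) :=
      hD.1 u _ hu1 hUv hu0 hUv0
    have e4 : ea Ω s₁ A₁ u (fun y => U y *ᵥ v y) = ea Ω s₁ A₁ u v := by
      have h1 := H292.UP.wk1 hΩ hb hs1 hsym1 hA1 (φ := fun x => U x *ᵥ v x - v x) hu1
        (hUv.sub hv) hu0 hz
      rw [H292.UP.ea_sub_right hb hs1 hA1 hu1 hUv hv] at h1
      exact sub_eq_zero.1 h1
    rw [e2, ← e3, e4]
  · intro u hu1 hu0
    obtain ⟨v, hv, hvf, hv0, he⟩ := hD.2 u hu1 hu0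
    have hw : ContDiff ℝ ∞ fun y => (U y)ᴴ *ᵥ v y := contDiff_mulVec (SmC_star hU) hv
    have hUw : (fun y => U y *ᵥ ((U y)ᴴ *ᵥ v y)) = v := by
      funext y
      rw [Matrix.mulVec_mulVec, hu' y, Matrix.one_mulVec]
    refine ⟨fun y => (U y)ᴴ *ᵥ v y, hw, fun x hx => ?_, fun x hx => ?_, ?_⟩
    · show (U x)ᴴ *ᵥ v x = u x
      rw [hU1 x hx, Matrix.conjTranspose_one, Matrix.one_mulVec, hvf x hx]
    · rw [lav_gA hU hu hs hA hw, hUw, hv0 x hx, Matrix.mulVec_zero]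
    · rw [ea_gA hU hu Ω s A hw hw, hUw, he]

end Vale.Agent.P088.H947.KG
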